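import Vale.Agent.P202E.Ext

/-!
P202 (helper98): consequences of `ext_components` in the form used by the hand-ins.
`LechOK A` : Lech's inequality holds for every flat local homomorphism `A → S`.
-/

set_option autoImplicit false

namespace Vale.Agent.P202E

open IsLocalRing Vale.Agent.P202 Vale.Agent.P202G Filter Topology TensorProduct

universe u v w

/-- Lech's inequality for all flat local homomorphisms out of `A` -/
def LechOK (A : Type u) [CommRing A] : Prop :=
  ∀ (_ : IsLocalRing A) (_ : IsNoetherianRing A) (S : Type v) [CommRing S] [IsLocalRing S]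
    [IsNoetherianRing S] [Algebra A S] [Module.Flat A S] [IsLocalHom (algebraMap A S)]
    (eR eS : ℝ), HasMult A eR → HasMult S eS → eR ≤ eS

theorem lechOK_three (A : Type u) [CommRing A] (hd : ringKrullDim A ≤ 3) :
    LechOK.{u, v} A := by
  intro _ _ S _ _ _ _ _ _ eR eS hR hS
  obtain ⟨d, hd'⟩ := exists_dim_nat (R := A)
  have hd3 : d ≤ 3 := by
    rw [hd'] at hd
    exact_mod_cast hd
  obtain ⟨eR', eS', hR', hS', -, h⟩ := full_ineq (R := A) (S := S) d hd'
  have h4 : (d - 2).factorial = 1 := by
    have h5 : d - 2 = 0 ∨ d - 2 = 1 := by omega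
    rcases h5 with h5 | h5
    · rw [h5]; rfl
    · rw [h5]; rfl
  rw [h4, Nat.cast_one, one_mul] at h
  rw [hasMult_unique hR hR', hasMult_unique hS hS']
  exact h

theorem lechOK_components (A : Type u) [CommRing A]
    (H : ∀ P : Ideal A, P.IsPrime → ringKrullDim (A ⧸ P) = ringKrullDim A →
      LechOK.{u, v} (A ⧸ P)) : LechOK.{u, v} A := by
  intro _ _ S _ _ _ _ _ _ eR eS hR hS
  obtain ⟨d, hd⟩ := exists_dim_nat (R := A)
  refine ext_components (R := A) (S := S) d hd ?_ eR eS hR hS
  intro P hP _ _ hPd eR eS hR hS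
  have h1 := dep_flat (R := A) (S := S) P
  have h2 := dep_localHom (R := A) (S := S) hP.ne_top
  exact H P hP (hPd.trans hd.symm) inferInstance inferInstance (S ⧸ P.map (algebraMap A S)) eR eS
    hR hS

/-- a ring containing a field contains `ℚ` or has prime characteristic -/
theorem field_cases (A : Type u) [CommRing A] (K : Subring A) (hK : IsField K) :
    (∃ p : ℕ, p.Prime ∧ CharP A p) ∨ Nonempty (Algebra ℚ A) := by
  let _ := hK.toField
  obtain ⟨p, hp⟩ := CharP.exists K
  rcases CharP.char_is_prime_or_zero K p with h | h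
  · refine Or.inl ⟨p, h, ?_⟩
    exact (RingHom.charP_iff K.subtype K.subtype_injective p).1 hp
  · subst h
    have : CharZero K := CharP.charP_to_charZero K
    exact Or.inr ⟨(K.subtype.comp (algebraMap ℚ K)).toAlgebra⟩

theorem lechOK_field (A : Type u) [CommRing A]
    (hp : ∀ (p : ℕ) [Fact p.Prime] [CharP A p], LechOK.{u, v} A)
    (h0 : ∀ [Algebra ℚ A], LechOK.{u, v} A)
    (hK : ∃ K : Subring A, IsField K) : LechOK.{u, v} A := by
  obtain ⟨K, hK⟩ := hK
  rcases field_cases A K hK with ⟨p, h1, h2⟩ | h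
  · have := Fact.mk h1
    exact hp p
  · obtain ⟨h⟩ := h
    exact h0

/-- **the components theorem**, from the equal characteristic theorem -/
theorem components_of_field
    (HF : ∀ (A : Type u) [CommRing A] (K : Subring A), IsField K → LechOK.{u, v} A)
    {R : Type u} {S : Type v}
    [CommRing R] [IsLocalRing R] [IsNoetherianRing R]
    [CommRing S] [IsLocalRing S] [IsNoetherianRing S]
    [Algebra R S] [Module.Flat R S] [IsLocalHom (algebraMap R S)]
    (h : ringKrullDim R ≤ 3 ∨ ∀ P : Ideal R, P.IsPrime →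
      ringKrullDim (R ⧸ P) = ringKrullDim R → ∃ K : Subring (R ⧸ P), IsField K) :
    (∃ eR : ℝ, HasMult R eR) ∧ (∃ eS : ℝ, HasMult S eS) ∧
      ∀ eR eS : ℝ, HasMult R eR → HasMult S eS → eR ≤ eS := by
  obtain ⟨d, hd⟩ := exists_dim_nat (R := R)
  obtain ⟨n, hn⟩ := exists_dim_nat (R := S)
  obtain ⟨e, he, -⟩ := hasMult_UX (A := R) d hd
  obtain ⟨e', he', -⟩ := hasMult_UX (A := S) n hn
  refine ⟨⟨e, he⟩, ⟨e', he'⟩, ?_⟩
  rcases h with h | h
  · exact lechOK_three R h inferInstance inferInstance S
  · refine lechOK_components R (fun P hP hPd => ?_) inferInstance inferInstance S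
    obtain ⟨K, hK⟩ := h P hP hPd
    exact HF (R ⧸ P) K hK

end Vale.Agent.P202E
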