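import Vale.Agent.P202G.Dep2
import Vale.Agent.P202C.W3
import Vale.Agent.P202.FinMain2
import Vale.Agent.P202.Full

/-!
P202, reduction to the top dimensional components (helper98), part 2: dimensions of flat
extensions.
-/

set_option autoImplicit false

namespace Vale.Agent.P202E

open IsLocalRing Vale.Agent.P202 Vale.Agent.P202G Filter Topology TensorProduct

universe u v

variable {R : Type u} {S : Type v} [CommRing R] [IsLocalRing R] [IsNoetherianRing R]
    [CommRing S] [IsLocalRing S] [IsNoetherianRing S]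
    [Algebra R S] [Module.Flat R S] [IsLocalHom (algebraMap R S)]

theorem dim_flat [IsLocalRing (S ⧸ (maximalIdeal R).map (algebraMap R S))] :
    ringKrullDim S = ringKrullDim R +
      ringKrullDim (S ⧸ (maximalIdeal R).map (algebraMap R S)) := by
  have hover : (maximalIdeal S).LiesOver (maximalIdeal R) := liesOver_max
  have h1 := Ideal.height_eq_height_add_of_liesOver_of_hasGoingDown (maximalIdeal R)
    (maximalIdeal S)
  have hne : (maximalIdeal R).map (algebraMap R S) ≠ ⊤ :=
    dep_map_ne_top (Ideal.IsPrime.ne_top inferInstance)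
  rw [← dep_max _ hne] at h1
  rw [← IsLocalRing.maximalIdeal_height_eq_ringKrullDim (R := S),
    ← IsLocalRing.maximalIdeal_height_eq_ringKrullDim (R := R),
    ← IsLocalRing.maximalIdeal_height_eq_ringKrullDim
      (R := S ⧸ (maximalIdeal R).map (algebraMap R S)), h1]
  rfl

/-- the closed fibre of `R/P → S/PS` is the closed fibre of `R → S` -/
theorem dim_quot (P : Ideal R) (hP : P ≠ ⊤) [IsLocalRing (R ⧸ P)]
    [IsLocalRing (S ⧸ P.map (algebraMap R S))]
    (h : ringKrullDim (R ⧸ P) = ringKrullDim R) :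
    ringKrullDim (S ⧸ P.map (algebraMap R S)) = ringKrullDim S := by
  have h1 := dep_flat (R := R) (S := S) P
  have h2 := dep_localHom (R := R) (S := S) hP
  have hne : (maximalIdeal R).map (algebraMap R S) ≠ ⊤ :=
    dep_map_ne_top (Ideal.IsPrime.ne_top inferInstance)
  have hl1 : IsLocalRing (S ⧸ (maximalIdeal R).map (algebraMap R S)) :=
    have := Ideal.Quotient.nontrivial_iff.2 hne
    IsLocalRing.of_surjective' (Ideal.Quotient.mk _) Ideal.Quotient.mk_surjective
  have hne2 : (maximalIdeal (R ⧸ P)).map (algebraMap (R ⧸ P) (S ⧸ P.map (algebraMap R S))) ≠ ⊤ :=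
    dep_map_ne_top (Ideal.IsPrime.ne_top inferInstance)
  have hl2 : IsLocalRing ((S ⧸ P.map (algebraMap R S)) ⧸
      (maximalIdeal (R ⧸ P)).map (algebraMap (R ⧸ P) (S ⧸ P.map (algebraMap R S)))) :=
    have := Ideal.Quotient.nontrivial_iff.2 hne2
    IsLocalRing.of_surjective' (Ideal.Quotient.mk _) Ideal.Quotient.mk_surjective
  have h3 := dim_flat (R := R) (S := S)
  have h4 := dim_flat (R := R ⧸ P) (S := S ⧸ P.map (algebraMap R S))
  rw [h3, h4, h]
  congr 1
  have h5 : (maximalIdeal (R ⧸ P)).map (algebraMap (R ⧸ P) (S ⧸ P.map (algebraMap R S))) =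
      ((maximalIdeal R).map (algebraMap R S)).map (Ideal.Quotient.mk (P.map (algebraMap R S))) := by
    rw [dep_max P hP, Ideal.map_map, Ideal.map_map]
    rfl
  have h6 : P.map (algebraMap R S) ⊔ (maximalIdeal R).map (algebraMap R S) =
      (maximalIdeal R).map (algebraMap R S) :=
    sup_eq_right.2 (Ideal.map_mono (IsLocalRing.le_maximalIdeal hP))
  exact ringKrullDim_eq_of_ringEquiv
    ((Ideal.quotEquivOfEq h5).trans ((DoubleQuot.quotQuotEquivQuotSup _ _).trans
      (Ideal.quotEquivOfEq h6)))

end Vale.Agent.P202E
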