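import Vale.Agent.P202E.Len
import Vale.Agent.P202E.Dim

/-!
P202, reduction to the top dimensional components (helper98), part 3: if Lech's inequality holds
for `R/P → S/PS` for all primes `P` of `R` with `dim R/P = dim R`, then it holds for `R → S`.
-/

set_option autoImplicit false

namespace Vale.Agent.P202E

open IsLocalRing Vale.Agent.P202 Vale.Agent.P202G Filter Topology TensorProduct

universe u v w

section Quot

variable {A : Type u} [CommRing A]

theorem qlen_self (J : Ideal A) : qlen J A = Module.length A (A ⧸ J) := by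
  unfold qlen
  have h : (J • ⊤ : Submodule A A) = J := by
    rw [Ideal.smul_eq_mul, Ideal.mul_top]
  exact (Submodule.quotEquivOfEq _ _ h).length_eq

theorem qlen_quot [IsLocalRing A] (P : Ideal A) (hP : P ≠ ⊤) [IsLocalRing (A ⧸ P)] (t : ℕ) :
    qlen (maximalIdeal A ^ t) (A ⧸ P) =
      Module.length (A ⧸ P) ((A ⧸ P) ⧸ maximalIdeal (A ⧸ P) ^ t) := by
  have h1 := Module.length_eq_of_surjective (R := A ⧸ P) (S := A)
    (M := (A ⧸ P) ⧸ maximalIdeal (A ⧸ P) ^ t) Ideal.Quotient.mk_surjective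
  rw [← h1]
  unfold qlen
  have h2 : (maximalIdeal A ^ t • ⊤ : Submodule A (A ⧸ P)) =
      (maximalIdeal (A ⧸ P) ^ t).restrictScalars A := by
    rw [Ideal.smul_top_eq_map, dep_max P hP, ← Ideal.map_pow]
    rfl
  exact ((Submodule.quotEquivOfEq _ _ h2).trans
    (Submodule.Quotient.restrictScalarsEquiv A _)).length_eq

theorem qlen_ne_top [IsLocalRing A] [IsNoetherianRing A] {M : Type v} [AddCommGroup M] [Module A M]
    [Module.Finite A M] (t : ℕ) : qlen (maximalIdeal A ^ t) M ≠ ⊤ := by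
  refine qlen_fin t fun M _ _ _ N h => ?_
  exact P202C.SA.length_ne_top_of_pow N h

end Quot

/-- asymptotic comparison data -/
def Good (d n : ℕ) (q s : ℕ → ℕ) : Prop :=
  ∃ a : ℝ, ∃ u w : ℕ → ℝ, Tendsto u atTop (𝓝 a) ∧ Tendsto w atTop (𝓝 a) ∧
    (∀ᶠ t : ℕ in atTop, (d.factorial : ℝ) * (q t : ℝ) / (t : ℝ) ^ d ≤ u t) ∧
    (∀ᶠ t : ℕ in atTop, w t ≤ (n.factorial : ℝ) * (s t : ℝ) / (t : ℝ) ^ n)

theorem tendsto_shift (c : ℕ) :
    Tendsto (fun t : ℕ => ((t - c : ℕ) : ℝ) / (t : ℝ)) atTop (𝓝 1) := by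
  have h1 := (tendsto_natCast_div_add_atTop (𝕜 := ℝ) (c : ℝ)).comp (tendsto_sub_atTop_nat c)
  refine h1.congr' ?_
  filter_upwards [eventually_ge_atTop c] with t ht
  have h2 : (((t - c : ℕ) : ℝ)) + (c : ℝ) = (t : ℝ) := by
    exact_mod_cast Nat.sub_add_cancel ht
  simp only [Function.comp_apply]
  rw [h2]

theorem Good.add {d n : ℕ} {q1 q2 q3 s1 s2 s3 : ℕ → ℕ} (h1 : Good d n q1 s1)
    (h3 : Good d n q3 s3) (hq : ∀ t, q2 t ≤ q1 t + q3 t) (c : ℕ)
    (hs : ∀ t, c ≤ t → s1 (t - c) + s3 t ≤ s2 t) : Good d n q2 s2 := by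
  obtain ⟨a1, u1, w1, hu1, hw1, hA1, hB1⟩ := h1
  obtain ⟨a3, u3, w3, hu3, hw3, hA3, hB3⟩ := h3
  refine ⟨a1 + a3, fun t => u1 t + u3 t,
    fun t => w1 (t - c) * (((t - c : ℕ) : ℝ) / (t : ℝ)) ^ n + w3 t, hu1.add hu3, ?_, ?_, ?_⟩
  · have h1 := hw1.comp (tendsto_sub_atTop_nat c)
    have h2 := (tendsto_shift c).pow n
    have h4 := (h1.mul h2).add hw3
    rw [one_pow, mul_one] at h4
    exact h4
  · filter_upwards [hA1, hA3] with t h1 h3
    refine le_trans ?_ (add_le_add h1 h3)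
    rw [← add_div, ← mul_add]
    have h4 : (q2 t : ℝ) ≤ (q1 t : ℝ) + (q3 t : ℝ) := by exact_mod_cast hq t
    gcongr
  · filter_upwards [(tendsto_sub_atTop_nat c).eventually hB1, hB3, eventually_gt_atTop c]
      with t h1 h3 ht
    have h4 : (s1 (t - c) : ℝ) + (s3 t : ℝ) ≤ (s2 t : ℝ) := by exact_mod_cast hs t ht.le
    have hpos : (0 : ℝ) < (t : ℝ) := by
      have : 0 < t := by omega
      exact_mod_cast this
    have hpos2 : (0 : ℝ) < ((t - c : ℕ) : ℝ) := by
      have : 0 < t - c := by omega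
      exact_mod_cast this
    have h5 : w1 (t - c) * (((t - c : ℕ) : ℝ) / (t : ℝ)) ^ n ≤
        (n.factorial : ℝ) * (s1 (t - c) : ℝ) / (t : ℝ) ^ n := by
      calc w1 (t - c) * (((t - c : ℕ) : ℝ) / (t : ℝ)) ^ n
          ≤ (n.factorial : ℝ) * (s1 (t - c) : ℝ) / ((t - c : ℕ) : ℝ) ^ n *
            (((t - c : ℕ) : ℝ) / (t : ℝ)) ^ n :=
            mul_le_mul_of_nonneg_right h1 (by positivity)
        _ = (n.factorial : ℝ) * (s1 (t - c) : ℝ) / (t : ℝ) ^ n := by
            rw [div_pow]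
            field_simp
    calc w1 (t - c) * (((t - c : ℕ) : ℝ) / (t : ℝ)) ^ n + w3 t
        ≤ (n.factorial : ℝ) * (s1 (t - c) : ℝ) / (t : ℝ) ^ n +
          (n.factorial : ℝ) * (s3 t : ℝ) / (t : ℝ) ^ n := add_le_add h5 h3
      _ = (n.factorial : ℝ) * ((s1 (t - c) : ℝ) + (s3 t : ℝ)) / (t : ℝ) ^ n := by
          rw [← add_div, ← mul_add]
      _ ≤ (n.factorial : ℝ) * (s2 t : ℝ) / (t : ℝ) ^ n := by gcongr

theorem good_zero {d n : ℕ} {q s : ℕ → ℕ}
    (h : Tendsto (fun t : ℕ => (d.factorial : ℝ) * (q t : ℝ) / (t : ℝ) ^ d) atTop (𝓝 0)) :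
    Good d n q s :=
  ⟨0, _, fun _ => 0, h, tendsto_const_nhds, Eventually.of_forall fun _ => le_rfl,
    Eventually.of_forall fun _ => by positivity⟩

theorem good_of_tendsto {d n : ℕ} {q s : ℕ → ℕ} {a b : ℝ} (hab : a ≤ b)
    (h1 : Tendsto (fun t : ℕ => (d.factorial : ℝ) * (q t : ℝ) / (t : ℝ) ^ d) atTop (𝓝 a))
    (h2 : Tendsto (fun t : ℕ => (n.factorial : ℝ) * (s t : ℝ) / (t : ℝ) ^ n) atTop (𝓝 b)) :
    Good d n q s := by
  refine ⟨a, _, fun t => (n.factorial : ℝ) * (s t : ℝ) / (t : ℝ) ^ n - (b - a), h1, ?_,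
    Eventually.of_forall fun _ => le_rfl, Eventually.of_forall fun _ => by linarith⟩
  have h3 := h2.sub_const (b - a)
  have h4 : b - (b - a) = a := by ring
  rwa [h4] at h3

theorem Good.le {d n : ℕ} {q s : ℕ → ℕ} {a b : ℝ} (h : Good d n q s)
    (h1 : Tendsto (fun t : ℕ => (d.factorial : ℝ) * (q t : ℝ) / (t : ℝ) ^ d) atTop (𝓝 a))
    (h2 : Tendsto (fun t : ℕ => (n.factorial : ℝ) * (s t : ℝ) / (t : ℝ) ^ n) atTop (𝓝 b)) :
    a ≤ b := by
  obtain ⟨x, u, w, hu, hw, hA, hB⟩ := h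
  exact (le_of_tendsto_of_tendsto h1 hu hA).trans (le_of_tendsto_of_tendsto hw h2 hB)

theorem tendsto_low {k d : ℕ} (hkd : k < d) {q : ℕ → ℕ} {e : ℝ}
    (h : Tendsto (fun t : ℕ => (k.factorial : ℝ) * (q t : ℝ) / (t : ℝ) ^ k) atTop (𝓝 e)) :
    Tendsto (fun t : ℕ => (d.factorial : ℝ) * (q t : ℝ) / (t : ℝ) ^ d) atTop (𝓝 0) := by
  obtain ⟨r, rfl⟩ := Nat.exists_eq_add_of_lt hkd
  have h1 : Tendsto (fun t : ℕ => ((t : ℝ)⁻¹) ^ (r + 1)) atTop (𝓝 0) := by
    have := (tendsto_inv_atTop_nhds_zero_nat (𝕜 := ℝ)).pow (r + 1)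
    simpa using this
  have h2 := (h.mul h1).const_mul (((k + r + 1).factorial : ℝ) / (k.factorial : ℝ))
  rw [mul_zero, mul_zero] at h2
  refine h2.congr' ?_
  filter_upwards [eventually_gt_atTop 0] with t ht
  have h3 : (0 : ℝ) < (t : ℝ) := by exact_mod_cast ht
  have h4 : (0 : ℝ) < (k.factorial : ℝ) := by exact_mod_cast Nat.factorial_pos k
  have h5 : (t : ℝ) ^ (k + r + 1) = (t : ℝ) ^ k * (t : ℝ) ^ (r + 1) := by
    rw [← pow_add, add_assoc]
  rw [h5, inv_pow]
  field_simp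

section Main

variable {R : Type u} {S : Type v} [CommRing R] [IsLocalRing R] [IsNoetherianRing R]
    [CommRing S] [IsLocalRing S] [IsNoetherianRing S]
    [Algebra R S] [Module.Flat R S] [IsLocalHom (algebraMap R S)]

theorem local_quot {A : Type w} [CommRing A] [IsLocalRing A] {P : Ideal A} (hP : P ≠ ⊤) :
    IsLocalRing (A ⧸ P) :=
  have := Ideal.Quotient.nontrivial_iff.2 hP
  IsLocalRing.of_surjective' (Ideal.Quotient.mk _) Ideal.Quotient.mk_surjective

theorem good_prime (d n : ℕ) (hd : ringKrullDim R = d) (hn : ringKrullDim S = n)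
    (P : Ideal R) (hP : P ≠ ⊤) [IsLocalRing (R ⧸ P)] [IsLocalRing (S ⧸ P.map (algebraMap R S))]
    (H : ringKrullDim (R ⧸ P) = d → ∀ eR eS : ℝ, HasMult (R ⧸ P) eR →
      HasMult (S ⧸ P.map (algebraMap R S)) eS → eR ≤ eS) :
    Good d n
      (fun t => (Module.length (R ⧸ P) ((R ⧸ P) ⧸ maximalIdeal (R ⧸ P) ^ t)).toNat)
      (fun t => (Module.length (S ⧸ P.map (algebraMap R S))
        ((S ⧸ P.map (algebraMap R S)) ⧸
          maximalIdeal (S ⧸ P.map (algebraMap R S)) ^ t)).toNat) := by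
  obtain ⟨k, hk⟩ := exists_dim_nat (R := R ⧸ P)
  have hkd : k ≤ d := by
    have h1 := ringKrullDim_quotient_le P
    rw [hd, hk] at h1
    exact_mod_cast h1
  obtain ⟨e, he, -⟩ := hasMult_UX (A := R ⧸ P) k hk
  obtain ⟨k', hk', hlim⟩ := he
  have hkk : k' = k := by
    rw [hk] at hk'
    exact_mod_cast hk'.symm
  subst hkk
  rcases hkd.lt_or_eq with hlt | heq
  · exact good_zero (tendsto_low hlt hlim)
  · subst heq
    have hdS : ringKrullDim (S ⧸ P.map (algebraMap R S)) = n := by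
      rw [dim_quot P hP (hk.trans hd.symm), hn]
    obtain ⟨e', he', -⟩ := hasMult_UX (A := S ⧸ P.map (algebraMap R S)) n hdS
    have hle := H hk e e' ⟨k', hk, hlim⟩ he'
    obtain ⟨n', hn', hlim'⟩ := he'
    have hnn : n' = n := by
      rw [hdS] at hn'
      exact_mod_cast hn'.symm
    subst hnn
    exact good_of_tendsto hle hlim hlim'

theorem good_module (d n : ℕ) (hd : ringKrullDim R = d) (hn : ringKrullDim S = n)
    (H : ∀ (P : Ideal R) (_ : P.IsPrime) [IsLocalRing (R ⧸ P)]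
      [IsLocalRing (S ⧸ P.map (algebraMap R S))],
      ringKrullDim (R ⧸ P) = d → ∀ eR eS : ℝ, HasMult (R ⧸ P) eR →
      HasMult (S ⧸ P.map (algebraMap R S)) eS → eR ≤ eS)
    (N : Type u) [AddCommGroup N] [Module R N] (hN : Module.Finite R N) :
    Good d n (fun t => (qlen (maximalIdeal R ^ t) N).toNat)
      (fun t => (qlen (maximalIdeal S ^ t) (S ⊗[R] N)).toNat) := by
  induction hN using IsNoetherianRing.induction_on_isQuotientEquivQuotientPrime R with
  | subsingleton N =>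
    refine good_zero ?_
    have h1 : ∀ t, (qlen (maximalIdeal R ^ t) N) = 0 := by
      intro t
      unfold qlen
      exact Module.length_eq_zero
    simp only [h1]
    simp
  | quotient N p e =>
    have hP : p.1 ≠ ⊤ := p.2.ne_top
    have hl1 : IsLocalRing (R ⧸ p.1) := local_quot hP
    have hl2 : IsLocalRing (S ⧸ p.1.map (algebraMap R S)) := local_quot (dep_map_ne_top hP)
    have h1 := good_prime (S := S) d n hd hn p.1 hP (H p.1 p.2)
    have h2 : ∀ t, qlen (maximalIdeal R ^ t) N =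
        Module.length (R ⧸ p.1) ((R ⧸ p.1) ⧸ maximalIdeal (R ⧸ p.1) ^ t) := by
      intro t
      rw [qlen_congr _ e, qlen_quot p.1 hP]
    have h3 : ∀ t, qlen (maximalIdeal S ^ t) (S ⊗[R] N) =
        Module.length (S ⧸ p.1.map (algebraMap R S)) ((S ⧸ p.1.map (algebraMap R S)) ⧸
          maximalIdeal (S ⧸ p.1.map (algebraMap R S)) ^ t) := by
      intro t
      rw [← qlen_quot (p.1.map (algebraMap R S)) (dep_map_ne_top hP)]
      refine qlen_congr _ ?_
      exact (e.baseChange R S _ _).trans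
        (Algebra.TensorProduct.quotIdealMapEquivTensorQuot S p.1).toLinearEquiv.symm
    simp only [h2, h3]
    exact h1
  | exact N1 N2 N3 f g hf hg hfg h1 h3 =>
    have hfg' : Function.Exact (f.baseChange S) (g.baseChange S) := by
      exact lTensor_exact S hfg hg
    have hg' : Function.Surjective (g.baseChange S) := by
      exact LinearMap.lTensor_surjective S hg
    have hf' : Function.Injective (f.baseChange S) := by
      exact Module.Flat.lTensor_preserves_injective_linearMap f hf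
    obtain ⟨c, hc⟩ := qlen_ge (f.baseChange S) (g.baseChange S) hg' hfg' hf' (maximalIdeal S)
    refine h1.add h3 (fun t => ?_) c (fun t ht => ?_)
    · have h4 := qlen_le f g hg hfg (maximalIdeal R ^ t)
      have h5 := ENat.toNat_le_toNat h4 (by
        exact WithTop.add_ne_top.2 ⟨qlen_ne_top t, qlen_ne_top t⟩)
      rwa [ENat.toNat_add (qlen_ne_top t) (qlen_ne_top t)] at h5
    · have h4 := hc t ht
      have h5 := ENat.toNat_le_toNat h4 (qlen_ne_top t)
      rwa [ENat.toNat_add (qlen_ne_top _) (qlen_ne_top t)] at h5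

theorem ext_components (d : ℕ) (hd : ringKrullDim R = d)
    (H : ∀ (P : Ideal R) (_ : P.IsPrime) [IsLocalRing (R ⧸ P)]
      [IsLocalRing (S ⧸ P.map (algebraMap R S))],
      ringKrullDim (R ⧸ P) = d → ∀ eR eS : ℝ, HasMult (R ⧸ P) eR →
      HasMult (S ⧸ P.map (algebraMap R S)) eS → eR ≤ eS) :
    ∀ eR eS : ℝ, HasMult R eR → HasMult S eS → eR ≤ eS := by
  intro eR eS hR hS
  obtain ⟨n, hn⟩ := exists_dim_nat (R := S)
  have h1 := good_module (S := S) d n hd hn H R inferInstance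
  have h2 : ∀ t, qlen (maximalIdeal R ^ t) R = Module.length R (R ⧸ maximalIdeal R ^ t) :=
    fun t => qlen_self _
  have h3 : ∀ t, qlen (maximalIdeal S ^ t) (S ⊗[R] R) =
      Module.length S (S ⧸ maximalIdeal S ^ t) := by
    intro t
    rw [← qlen_self]
    exact qlen_congr _ (AlgebraTensorModule.rid R S S)
  simp only [h2, h3] at h1
  obtain ⟨d', hd', hl⟩ := hR
  obtain ⟨n', hn', hl'⟩ := hS
  have hdd : d' = d := by
    rw [hd] at hd'
    exact_mod_cast hd'.symm
  have hnn : n' = n := by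
    rw [hn] at hn'
    exact_mod_cast hn'.symm
  subst hdd hnn
  exact h1.le hl hl'

end Main

end Vale.Agent.P202E
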