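import Mathlib

/-!
P202, reduction to the top dimensional components (helper98), part 1: lengths of `M / J^t M` in a
short exact sequence.
-/

set_option autoImplicit false

namespace Vale.Agent.P202E

open Filter Topology

universe u v w x y

variable {A : Type u} [CommRing A]
  {M1 : Type v} [AddCommGroup M1] [Module A M1]
  {M2 : Type w} [AddCommGroup M2] [Module A M2]
  {M3 : Type x} [AddCommGroup M3] [Module A M3]

/-- `length (M / J M)` -/
noncomputable def qlen (J : Ideal A) (M : Type v) [AddCommGroup M] [Module A M] : ℕ∞ :=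
  Module.length A (M ⧸ (J • ⊤ : Submodule A M))

theorem qlen_congr (J : Ideal A) (e : M1 ≃ₗ[A] M2) : qlen J M1 = qlen J M2 := by
  unfold qlen
  refine LinearEquiv.length_eq (Submodule.Quotient.equiv _ _ e ?_)
  rw [Submodule.map_smul'', Submodule.map_top]
  rw [LinearMap.range_eq_top.2 e.surjective]

theorem qlen_anti {J K : Ideal A} (h : J ≤ K) : qlen K M1 ≤ qlen J M1 := by
  unfold qlen
  exact Module.length_le_of_surjective (Submodule.factor (Submodule.smul_mono_left h))
    (Submodule.factor_surjective _)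

section exact

variable (f : M1 →ₗ[A] M2) (g : M2 →ₗ[A] M3) (hg : Function.Surjective g)
  (hfg : Function.Exact f g)

include hg hfg

/-- the exact sequence `0 → M1 / f⁻¹(J M2) → M2 / J M2 → M3 / J M3 → 0` -/
theorem qlen_eq (J : Ideal A) : qlen J M2 =
    Module.length A (M1 ⧸ (J • ⊤ : Submodule A M2).comap f) + qlen J M3 := by
  unfold qlen
  let f' : (M1 ⧸ (J • ⊤ : Submodule A M2).comap f) →ₗ[A] (M2 ⧸ (J • ⊤ : Submodule A M2)) :=
    Submodule.mapQ _ _ f le_rfl
  have hle : (J • ⊤ : Submodule A M2) ≤ (J • ⊤ : Submodule A M3).comap g := by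
    rw [← Submodule.map_le_iff_le_comap, Submodule.map_smul'']
    exact Submodule.smul_mono le_rfl le_top
  let g' : (M2 ⧸ (J • ⊤ : Submodule A M2)) →ₗ[A] (M3 ⧸ (J • ⊤ : Submodule A M3)) :=
    Submodule.mapQ _ _ g hle
  refine Module.length_eq_add_of_exact f' g' ?_ ?_ ?_
  · rw [← LinearMap.ker_eq_bot, eq_bot_iff]
    intro z hz
    obtain ⟨z, rfl⟩ := Submodule.Quotient.mk_surjective _ z
    have h1 : Submodule.Quotient.mk (f z) = (0 : M2 ⧸ (J • ⊤ : Submodule A M2)) := hz
    have h2 : f z ∈ (J • ⊤ : Submodule A M2) := (Submodule.Quotient.mk_eq_zero _).1 h1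
    rw [Submodule.mem_bot, Submodule.Quotient.mk_eq_zero]
    exact h2
  · intro z
    obtain ⟨z, rfl⟩ := Submodule.Quotient.mk_surjective _ z
    obtain ⟨y, rfl⟩ := hg z
    exact ⟨Submodule.Quotient.mk y, rfl⟩
  · intro z
    obtain ⟨z, rfl⟩ := Submodule.Quotient.mk_surjective _ z
    constructor
    · intro h
      have h1 : g z ∈ (J • ⊤ : Submodule A M3) := by
        have : Submodule.Quotient.mk (g z) = (0 : M3 ⧸ (J • ⊤ : Submodule A M3)) := h
        exact (Submodule.Quotient.mk_eq_zero _).1 this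
      have h2 : (J • ⊤ : Submodule A M3) = (J • ⊤ : Submodule A M2).map g := by
        rw [Submodule.map_smul'', Submodule.map_top, LinearMap.range_eq_top.2 hg]
      rw [h2] at h1
      obtain ⟨w, hw, hwz⟩ := h1
      have h3 : g (z - w) = 0 := by rw [map_sub, hwz, sub_self]
      obtain ⟨v, hv⟩ := (hfg _).1 h3
      refine ⟨Submodule.Quotient.mk v, ?_⟩
      change Submodule.Quotient.mk (f v) = _
      rw [hv, Submodule.Quotient.eq]
      have : z - w - z = -w := by abel
      rw [this]
      exact Submodule.neg_mem _ hw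
    · rintro ⟨v, hv⟩
      obtain ⟨v, rfl⟩ := Submodule.Quotient.mk_surjective _ v
      rw [← hv]
      change Submodule.Quotient.mk (g (f v)) = _
      rw [hfg.apply_apply_eq_zero v]
      rfl

theorem qlen_le (J : Ideal A) : qlen J M2 ≤ qlen J M1 + qlen J M3 := by
  rw [qlen_eq f g hg hfg J]
  refine add_le_add ?_ le_rfl
  unfold qlen
  have h : (J • ⊤ : Submodule A M1) ≤ (J • ⊤ : Submodule A M2).comap f := by
    rw [← Submodule.map_le_iff_le_comap, Submodule.map_smul'']
    exact Submodule.smul_mono le_rfl le_top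
  exact Module.length_le_of_surjective (Submodule.factor h) (Submodule.factor_surjective _)

theorem qlen_ge [IsNoetherianRing A] [Module.Finite A M2] (hf : Function.Injective f)
    (J : Ideal A) : ∃ c : ℕ, ∀ t, c ≤ t →
      qlen (J ^ (t - c)) M1 + qlen (J ^ t) M3 ≤ qlen (J ^ t) M2 := by
  obtain ⟨c, hc⟩ := Ideal.exists_pow_inf_eq_pow_smul J (LinearMap.range f)
  refine ⟨c, fun t ht => ?_⟩
  rw [qlen_eq f g hg hfg (J ^ t)]
  refine add_le_add ?_ le_rfl
  have h : (J ^ t • ⊤ : Submodule A M2).comap f ≤ (J ^ (t - c) • ⊤ : Submodule A M1) := by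
    intro v hv
    have h1 : f v ∈ J ^ t • ⊤ ⊓ LinearMap.range f := ⟨hv, ⟨v, rfl⟩⟩
    rw [hc t ht] at h1
    have h2 : f v ∈ J ^ (t - c) • LinearMap.range f :=
      Submodule.smul_mono le_rfl inf_le_right h1
    rw [← Submodule.map_top, ← Submodule.map_smul''] at h2
    obtain ⟨w, hw, hwv⟩ := h2
    rw [← hf hwv]
    exact hw
  exact Module.length_le_of_surjective (Submodule.factor h) (Submodule.factor_surjective _)

end exact

theorem qlen_fin [IsLocalRing A] [IsNoetherianRing A] [Module.Finite A M1] (t : ℕ)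
    (h : ∀ (M : Type v) [AddCommGroup M] [Module A M] [Module.Finite A M] (N : ℕ),
      (∀ r ∈ IsLocalRing.maximalIdeal A ^ N, ∀ x : M, r • x = 0) → Module.length A M ≠ ⊤) :
    qlen (IsLocalRing.maximalIdeal A ^ t) M1 ≠ ⊤ := by
  unfold qlen
  refine h _ t fun r hr z => ?_
  obtain ⟨z, rfl⟩ := Submodule.Quotient.mk_surjective _ z
  rw [← Submodule.Quotient.mk_smul, Submodule.Quotient.mk_eq_zero]
  exact Submodule.smul_mem_smul hr Submodule.mem_top

end Vale.Agent.P202E
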