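import Vale.Agent.P202E.Comp
import Vale.Agent.P202Z.ZE3
import Vale.Agent.P202C.UltFin

/-!
P202 (helper98): Lech's conjecture for all rings containing `ℚ`, and for F-finite rings of
characteristic `p`, in the form `LechOK`.
-/

set_option autoImplicit false

namespace Vale.Agent.P202E

open IsLocalRing Vale.Agent.P202 Filter Topology

universe u v

theorem lechG_proved (D : ℕ) : P202Z.LechG D := by
  intro p _ R S _ _ _ _ _ _ _ _ _ _ _ hF _ eR eS hR hS
  have hN : IsNoetherianRing S := IsNoetherianRing.of_finite R S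
  exact P202C.lech_ffinite p R S hF eR eS hR hS

theorem lechOK_zero (A : Type u) [CommRing A] [Algebra ℚ A] : LechOK.{u, v} A := by
  intro _ _ S _ _ _ _ _ _ eR eS hR hS
  obtain ⟨d, hd⟩ := exists_dim_nat (R := A)
  exact P202Z.lech_zero_proved d (lechG_proved d) A S hd eR eS hR hS

theorem lechOK_ffinite (A : Type u) [CommRing A] (p : ℕ) [Fact p.Prime] [CharP A p]
    (hF : (frobenius A p).Finite) : LechOK.{u, v} A := by
  intro _ _ S _ _ _ _ _ _ eR eS hR hS
  exact P202C.lech_ffinite p A S hF eR eS hR hS

end Vale.Agent.P202E
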